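import Vale.Agent.P240.R2.H487.LP8

/-!
`PSL_n(F)` has few outer automorphisms of order two if `n` is prime to `|F| - 1` and `|F|` is not a
square.
-/

set_option autoImplicit false

namespace Vale.Agent.P240.R2.H651.L

open Matrix Subgroup Vale.Agent.P240.K Vale.Agent.P240.H195 Vale.Agent.P240.R2.H487

/-- a finite field with an automorphism of order two has square order -/
theorem isSquare_card {F : Type*} [Field F] [Finite F] {σ : RingAut F} (h2 : σ ^ 2 = 1)
    (h1 : σ ≠ 1) : IsSquare (Nat.card F) := by
  classical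
  have hfin : Finite (RingAut F) := Finite.of_injective (fun f : RingAut F => (f : F → F))
    DFunLike.coe_injective
  have ho : orderOf σ = 2 := orderOf_eq_prime h2 h1
  have : Fintype F := Fintype.ofFinite F
  have : Fintype (RingAut F) := Fintype.ofFinite _
  have : Fintype (zpowers σ) := Fintype.ofFinite _
  have h3 := FixedPoints.finrank_eq_card (zpowers σ) F
  rw [← Nat.card_eq_fintype_card, Nat.card_zpowers, ho] at h3
  have h4 := Module.natCard_eq_pow_finrank (K := FixedPoints.subfield (zpowers σ) F) (V := F)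
  rw [h3] at h4
  exact ⟨_, h4.trans (pow_two _)⟩

/-- roots of the determinant -/
theorem exists_root {F : Type*} [Field F] [Finite F] {n : ℕ}
    (hc : n.Coprime (Nat.card F - 1)) {x : F} (hx : x ≠ 0) : ∃ w : F, x = w ^ n := by
  classical
  have : Fintype F := Fintype.ofFinite F
  have h1 : (Nat.card Fˣ).Coprime n := by
    rw [Nat.card_units]
    exact hc.symm
  obtain ⟨w, hw⟩ := (powCoprime h1).surjective (Units.mk0 x hx)
  refine ⟨w, ?_⟩
  have h2 := congrArg Units.val hw
  rw [powCoprime_apply, Units.val_pow_eq_pow_val, Units.val_mk0] at h2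
  exact h2.symm

section
variable {F : Type*} [Field F] {m : ℕ} [Finite F]

/-- **`PSL_n(F)`**, `n` prime to `|F| - 1`, `|F|` not a square -/
theorem few_coprime {r : ℕ} [hr : Fact r.Prime] [CharP F r] (hm : 2 ≤ m)
    (hc : (m + 1).Coprime (Nat.card F - 1)) (hF : ¬ IsSquare (Nat.card F))
    (hsimple : IsSimpleGroup (PL m F)) : FewAut 2 (PL m F) := by
  have hτ : ∀ τ : RingAut F, τ ^ 2 = 1 → τ = 1 := fun τ h2 => by
    by_contra h1
    exact hF (isSquare_card h2 h1)
  have hin : ∀ M : GLm m F, ∃ y, sem M 1 = MulAut.conj y := fun M => by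
    obtain ⟨w, hw⟩ := exists_root hc (det_ne' M)
    exact inner_of_det hw
  have key : ∀ f : MulAut (PL m F), OutAut 2 f → ∃ y : PL m F,
      f = MulAut.conj y * ind (itA m F) := by
    intro f hf
    obtain ⟨M, τ, h | h⟩ := aut_psl (r := r) hm hsimple f
    · exfalso
      obtain ⟨M', h1, -⟩ := sem_pow M τ 2
      have h2 : τ = 1 := by
        refine hτ τ (sem_trivial (r := r) (N := M') ?_ (by omega)).1
        rw [← h1, ← h, hf.1]
      rw [h2] at h
      obtain ⟨y, hy⟩ := hin M
      exact hf.2 ⟨y, by rw [h, hy]⟩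
    · have h2 : τ = 1 := by
        refine hτ τ ?_
        have h3 : (sem M τ * ind (itA m F)) ^ 2 = sem (M * gla τ (gt M)) (τ * τ) := by
          rw [← sem_mul, ← it_sem, pow_two]
          group
        rw [pow_two]
        refine (sem_trivial (r := r) (N := M * gla τ (gt M)) ?_ (by omega)).1
        rw [← h3, ← h, hf.1]
      rw [h2] at h
      obtain ⟨y, hy⟩ := hin M
      exact ⟨y, by rw [h, hy]⟩
  have hall : ∀ f g : MulAut (PL m F), OutAut 2 f → OutAut 2 g →
      g ∈ zpowers f ⊔ (MulAut.conj (G := PL m F)).range := by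
    intro f g hf hg
    obtain ⟨y, h1⟩ := key f hf
    obtain ⟨y', h1'⟩ := key g hg
    exact fa_class h1 h1' (pow_one _).symm
  exact ⟨fun f g h hf hg hh => Or.inl (hall f g hf hg), Or.inl hall⟩

end

end Vale.Agent.P240.R2.H651.L
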