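import Vale.Agent.P240.R2.H487.TwoM
import Vale.Agent.P240.R2.H651.L.A

/-!
Groups isomorphic to `PSL_n(F)`, `n` prime to `|F| - 1`, `|F|` not a square.
-/

set_option autoImplicit false

namespace Vale.Agent.P240.R2.H651.L

open Matrix Subgroup Vale.Agent.P240.K Vale.Agent.P240.H195 Vale.Agent.P240.R2.H487

universe u

/-- **`PSL_n(F)`**, `n` prime to `|F| - 1`, `|F|` odd and not a square -/
theorem psl_few {L : Type u} [Group L] (hs : IsSimpleGroup L) (hnab : ∃ x y : L, x * y ≠ y * x)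
    {n : ℕ} {F : Type} [Field F] [Finite F] (h2 : (2 : F) ≠ 0)
    (hc : n.Coprime (Nat.card F - 1)) (hF : ¬ IsSquare (Nat.card F))
    (e : L ≃* ProjectiveSpecialLinearGroup (Fin n) F) :
    FewAut 2 L ∧ ∃ r : ℕ, r.Prime ∧ AutFree 2 r L := by
  have hn2 := psl_two_le hnab e
  obtain ⟨r, hrc⟩ := CharP.exists F
  have hr : r.Prime := (CharP.char_is_prime_or_zero F r).resolve_right
    (CharP.char_ne_zero_of_finite F r)
  have : Fact r.Prime := ⟨hr⟩
  have hr2 : r ≠ 2 := by
    rintro rfl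
    exact h2 (by exact_mod_cast CharP.cast_eq_zero F 2)
  have hn3 : 3 ≤ n := by
    by_contra hcon
    have h3 : n = 2 := by omega
    subst h3
    have : Fintype F := Fintype.ofFinite F
    obtain ⟨k, -, hk⟩ := FiniteField.card F r
    have h4 : Odd (Nat.card F) := by
      rw [Nat.card_eq_fintype_card, hk]
      exact (hr.odd_of_ne_two hr2).pow
    have h5 : 2 ∣ Nat.card F - 1 := by
      obtain ⟨j, hj⟩ := h4
      rw [hj]
      exact ⟨j, by omega⟩
    have h6 := Nat.dvd_gcd (dvd_refl 2) h5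
    rw [hc] at h6
    omega
  obtain ⟨m, rfl⟩ : ∃ m, n = m + 1 := ⟨n - 1, by omega⟩
  have hcen := centreless_of_simple hs hnab
  have hs' : IsSimpleGroup (PL m F) := e.symm.isSimpleGroup
  have hc' : ∀ x : PL m F, (∀ y, x * y = y * x) → x = 1 := centreless_tr e hcen
  exact ⟨(few_coprime (r := r) (by omega) hc hF hs').congr e.symm, r, hr,
    ((psl_lieType (p := r) (by omega) hs' hc').autFree hr Nat.prime_two hr2.symm).congr e.symm⟩

end Vale.Agent.P240.R2.H651.L
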