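import Vale.Agent.P240.H195.SLJ
import Vale.Agent.P240.R2.H651.L.B

/-!
Groups isomorphic to `PSL_2(F)`, or `PSL_n(F)`, `n` prime to `|F| - 1`, `|F|` not a square.
-/

set_option autoImplicit false

namespace Vale.Agent.P240.R2.H651.L

open Matrix Subgroup Vale.Agent.P240.K Vale.Agent.P240.H195 Vale.Agent.P240.R2.H487

universe u

/-- `PSL_2(F)`, `|F|` odd -/
theorem psl2_few {L : Type u} [Group L] (hs : IsSimpleGroup L) (hnab : ∃ x y : L, x * y ≠ y * x)
    {F : Type} [Field F] [Finite F] (h2 : (2 : F) ≠ 0)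
    (e : L ≃* ProjectiveSpecialLinearGroup (Fin 2) F) :
    FewAut 2 L ∧ ∃ r : ℕ, r.Prime ∧ AutFree 2 r L := by
  obtain ⟨r, hrc⟩ := CharP.exists F
  have hr : r.Prime := (CharP.char_is_prime_or_zero F r).resolve_right
    (CharP.char_ne_zero_of_finite F r)
  have : Fact r.Prime := ⟨hr⟩
  have : Fact (Nat.Prime 2) := ⟨Nat.prime_two⟩
  have hr2 : r ≠ 2 := by
    rintro rfl
    exact h2 (by exact_mod_cast CharP.cast_eq_zero F 2)
  have hcen := centreless_of_simple hs hnab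
  have hs' : IsSimpleGroup (PL 1 F) := e.symm.isSimpleGroup
  have hc' : ∀ x : PL 1 F, (∀ y, x * y = y * x) → x = 1 := centreless_tr e hcen
  exact ⟨isPSL2_few hr2 hs e, r, hr,
    ((psl_lieType (p := r) (by omega) hs' hc').autFree hr Nat.prime_two hr2.symm).congr e.symm⟩

/-- **`PSL_n(F)`**, `|F|` odd, and `n = 2`, or `n` is prime to `|F| - 1` and `|F|` is not a square -/
theorem psl_few' {L : Type u} [Group L] (hs : IsSimpleGroup L) (hnab : ∃ x y : L, x * y ≠ y * x)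
    {n : ℕ} {F : Type} [Field F] [Finite F] (h2 : (2 : F) ≠ 0)
    (hc : n = 2 ∨ (n.Coprime (Nat.card F - 1) ∧ ¬ IsSquare (Nat.card F)))
    (e : L ≃* ProjectiveSpecialLinearGroup (Fin n) F) :
    FewAut 2 L ∧ ∃ r : ℕ, r.Prime ∧ AutFree 2 r L := by
  rcases hc with rfl | ⟨hc, hF⟩
  · exact psl2_few hs hnab h2 e
  · exact psl_few hs hnab h2 hc hF e

end Vale.Agent.P240.R2.H651.L
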